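import Vale.Agent.P076.Weighted
import Vale.Agent.P076.Stmt

open MeasureTheory Filter Topology

namespace Vale.Agent.Results.P076.WeightedDivergence

open Vale.Agent.P076.Stmt

/-- For every `n ≥ 2` and every `w → 0` there is `f ∈ L^2(R^n)` whose `H^{s_n}` norm relaxed by the
factor `w(|ξ|)` is finite, and a set of positive measure on which `exp (i t Δ) f (x)` takes
arbitrarily large values at arbitrarily small times, hence converges to nothing. -/
theorem result (n : ℕ) (hn : 2 ≤ n) (w : ℝ → ℝ) (hw : Tendsto w atTop (𝓝 0)) :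
    ∃ f : Lp ℂ 2 (volume : Measure (EuclideanSpace ℝ (Fin n))),
      (∫⁻ ξ : EuclideanSpace ℝ (Fin n), ENNReal.ofReal
        ((1 + ‖ξ‖ ^ 2) ^ ((n : ℝ) / (2 * ((n : ℝ) + 1))) * w ‖ξ‖ * ‖hat f ξ‖ ^ 2) < ⊤) ∧
      ∃ A : Set (EuclideanSpace ℝ (Fin n)), MeasurableSet A ∧ 0 < volume A ∧ ∀ x ∈ A,
        (∀ M δ : ℝ, 0 < δ → ∃ t : ℝ, 0 < t ∧ t < δ ∧ ∃ v : ℂ, HasValue f x t v ∧ M ≤ ‖v‖) ∧
        (∀ c : ℂ, ¬ ConvergesAt f x c) := by
  have h := Vale.Agent.P076.weighted_divergence n hn w hw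
  have e : Module.finrank ℝ (EuclideanSpace ℝ (Fin n)) = n := by simp
  unfold ConvergesAt HasValue regInt
  rw [e]
  exact h

end Vale.Agent.Results.P076.WeightedDivergence
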