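import Vale.Agent.Results.P076.WeightedDivergence

open MeasureTheory Filter Topology

namespace Vale.Agent.Results.P076.X_NoConvergence

open Vale.Agent.P076.Stmt

/-- For every `n ≥ 2` and every `w → 0` there is `f ∈ L^2(R^n)` whose `H^{s_n}` norm relaxed by the
factor `w(|ξ|)` is finite, and a set of positive measure at no point of which `exp (i t Δ) f (x)`
converges as `t` decreases to `0`. -/
theorem result (n : ℕ) (hn : 2 ≤ n) (w : ℝ → ℝ) (hw : Tendsto w atTop (𝓝 0)) :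
    ∃ f : Lp ℂ 2 (volume : Measure (EuclideanSpace ℝ (Fin n))),
      (∫⁻ ξ : EuclideanSpace ℝ (Fin n), ENNReal.ofReal
        ((1 + ‖ξ‖ ^ 2) ^ ((n : ℝ) / (2 * ((n : ℝ) + 1))) * w ‖ξ‖ * ‖hat f ξ‖ ^ 2) < ⊤) ∧
      ∃ A : Set (EuclideanSpace ℝ (Fin n)), MeasurableSet A ∧ 0 < volume A ∧ ∀ x ∈ A,
        ∀ c : ℂ, ¬ ConvergesAt f x c := by
  obtain ⟨f, h1, A, h2, h3, h4⟩ := Vale.Agent.Results.P076.WeightedDivergence.result n hn w hw
  exact ⟨f, h1, A, h2, h3, fun x hx => (h4 x hx).2⟩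

end Vale.Agent.Results.P076.X_NoConvergence
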